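import Vale.Agent.P228.Newman

namespace Vale.Agent.Results.P228.HilbertSmith

universe u

theorem result (p : ℕ) [Fact p.Prime] (n : ℕ) (M : Type u) [TopologicalSpace M] [T2Space M]
    [SecondCountableTopology M] [ChartedSpace (EuclideanSpace ℝ (Fin n)) M] [ConnectedSpace M]
    [AddAction ℤ_[p] M] [ContinuousVAdd ℤ_[p] M] : ¬ FaithfulVAdd ℤ_[p] M :=
  Vale.Agent.P228.hilbert_smith (n := n)

end Vale.Agent.Results.P228.HilbertSmith
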